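import Vale.Agent.P207.Q.Flow

/-!
# P207 / N3 (helper566): functions which are smooth along plots are smooth with jointly continuous
derivatives

`Sec D`: the diffeology `D` has local sections (locally the space is a retract of a finite
dimensional vector space). `SmOn D F S`: the function `F : X × E → W` is smooth along plots which
take their values in `S`. Then for all `(x, u) ∈ S` the function `F (x, ·)` is smooth near `u`,
and all its derivatives are continuous on `S` in both variables.
-/

set_option linter.unusedSectionVars false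
set_option linter.unusedVariables false

open Set Filter Topology
open scoped ContDiff

namespace Vale.Agent.P207.N3.H566

open Vale.Agent.P207.Q.Fl

section Slice

variable {V E W : Type*} [NormedAddCommGroup V] [NormedSpace ℝ V] [NormedAddCommGroup E]
  [NormedSpace ℝ E] [NormedAddCommGroup W] [NormedSpace ℝ W]

theorem iteratedFDeriv_slice {G : V × E → W} {s : Set (V × E)} (hs : IsOpen s)
    (hG : ContDiffOn ℝ ∞ G s) (k : ℕ) {q : V × E} (hq : q ∈ s) :
    iteratedFDeriv ℝ k (fun u => G (q.1, u)) q.2 =
      (iteratedFDeriv ℝ k G q).compContinuousLinearMap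
        fun _ => ContinuousLinearMap.inr ℝ V E := by
  set c : V × E := (q.1, 0) with hc
  set G' : V × E → W := fun y => G (y + c) with hG'
  set s' : Set (V × E) := (fun y => y + c) ⁻¹' s with hs'
  have hs'o : IsOpen s' := hs.preimage (by fun_prop)
  have hG's : ContDiffOn ℝ ∞ G' s' := by
    refine hG.comp (t := s) (s := s') (g := G) (f := fun y => y + c) ?_ fun y hy => hy
    exact (contDiff_id.add contDiff_const).contDiffOn
  have e1 : (fun u => G (q.1, u)) = G' ∘ (ContinuousLinearMap.inr ℝ V E) := by
    funext u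
    simp only [Function.comp_apply, ContinuousLinearMap.inr_apply, hG', hc, Prod.mk_add_mk,
      zero_add, add_zero]
  have hqs : ContinuousLinearMap.inr ℝ V E q.2 ∈ s' := by
    change ContinuousLinearMap.inr ℝ V E q.2 + c ∈ s
    simp only [ContinuousLinearMap.inr_apply, hc, Prod.mk_add_mk, zero_add, add_zero]
    exact hq
  have hpo : IsOpen ((ContinuousLinearMap.inr ℝ V E) ⁻¹' s') :=
    hs'o.preimage (ContinuousLinearMap.inr ℝ V E).continuous
  have h1 := (ContinuousLinearMap.inr ℝ V E).iteratedFDerivWithin_comp_right (i := k) hG's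
    hs'o.uniqueDiffOn hpo.uniqueDiffOn hqs (by exact_mod_cast le_top)
  rw [iteratedFDerivWithin_of_isOpen k hpo hqs, iteratedFDerivWithin_of_isOpen k hs'o hqs] at h1
  rw [e1, h1]
  congr 1
  rw [hG', iteratedFDeriv_comp_add_right]
  congr 1
  simp only [ContinuousLinearMap.inr_apply, hc, Prod.mk_add_mk, zero_add, add_zero]

/-- the derivatives of the slices of a smooth function are jointly continuous -/
theorem continuousAt_slice {G : V × E → W} {p : V × E} (h : Sm G p) (k : ℕ) :
    ContinuousAt (fun q : V × E => iteratedFDeriv ℝ k (fun u => G (q.1, u)) q.2) p := by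
  obtain ⟨s, hs1, hs2, hs3⟩ := eventually_nhds_iff.1 h
  have hG : ContDiffOn ℝ ∞ G s := fun y hy => (hs1 y hy).contDiffWithinAt
  have h1 : ContinuousOn (iteratedFDeriv ℝ k G) s := by
    have h2 := hG.continuousOn_iteratedFDerivWithin (m := k) (by exact_mod_cast le_top)
      hs2.uniqueDiffOn
    exact h2.congr fun y hy => (iteratedFDerivWithin_of_isOpen k hs2 hy).symm
  have h3 : ContinuousAt (fun q => (iteratedFDeriv ℝ k G q).compContinuousLinearMap
      fun _ => ContinuousLinearMap.inr ℝ V E) p := by
    have h4 : ContinuousAt (iteratedFDeriv ℝ k G) p := h1.continuousAt (hs2.mem_nhds hs3)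
    exact (ContinuousMultilinearMap.compContinuousLinearMapL (F := W)
      (fun _ : Fin k => ContinuousLinearMap.inr ℝ V E)).continuous.continuousAt.comp h4
  refine h3.congr ?_
  filter_upwards [hs2.mem_nhds hs3] with q hq
  exact (iteratedFDeriv_slice hs2 hG k hq).symm

end Slice

/-! ### Diffeologies with local sections -/

variable {X Y : Type*} [TopologicalSpace X] [TopologicalSpace Y]

/-- `r ∘ κ = id` near `x`, with `κ` continuous and `r` smooth -/
structure SecAt (D : Dif X) (x : X) (V : Type) [NormedAddCommGroup V] [NormedSpace ℝ V]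
    [FiniteDimensional ℝ V] (κ : X → V) (r : V → X) : Prop where
  plot : D.At r (κ x)
  ev : ∀ᶠ q in 𝓝 x, ContinuousAt κ q ∧ r (κ q) = q

/-- local sections -/
def Sec (D : Dif X) : Prop :=
  ∀ x : X, ∃ (V : Type) (_ : NormedAddCommGroup V) (_ : NormedSpace ℝ V)
    (_ : FiniteDimensional ℝ V) (κ : X → V) (r : V → X), SecAt D x V κ r

theorem sec_of_hasSec {ι V P : Type} [NormedAddCommGroup V] [NormedSpace ℝ V]
    [TopologicalSpace P] {C : CSys ι V P} [FiniteDimensional ℝ V] (h : CSys.HasSec C) :
    Sec C.dif := by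
  intro p
  obtain ⟨i, hi, r, hr, hev⟩ := h p
  refine ⟨V, inferInstance, inferInstance, inferInstance, C.c i, r, hr, ?_⟩
  filter_upwards [hev, (C.isOpen_S i).mem_nhds hi] with q h1 h2
  exact ⟨C.contAt_c h2, h1⟩

/-- `F` is smooth along the plots with values in `S` -/
def SmOn (D : Dif X) {E W : Type} [NormedAddCommGroup E] [NormedSpace ℝ E]
    [NormedAddCommGroup W] [NormedSpace ℝ W] (F : X → E → W) (S : Set (X × E)) : Prop :=
  ∀ {E' : Type} [NormedAddCommGroup E'] [NormedSpace ℝ E'] [FiniteDimensional ℝ E']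
    {u : E' → X} {v : E' → E} {y : E'}, D.At u y → Sm v y → (u y, v y) ∈ S →
      Sm (fun z => F (u z) (v z)) y

section JC

variable {D : Dif X} {E W : Type} [NormedAddCommGroup E] [NormedSpace ℝ E]
  [FiniteDimensional ℝ E] [NormedAddCommGroup W] [NormedSpace ℝ W] {F : X → E → W}
  {S : Set (X × E)}

theorem SmOn.sm (hF : SmOn D F S) {x : X} {V : Type} [NormedAddCommGroup V] [NormedSpace ℝ V]
    [FiniteDimensional ℝ V] {κ : X → V} {r : V → X} (hx : SecAt D x V κ r) {u : E}
    (h : (x, u) ∈ S) : Sm (fun q : V × E => F (r q.1) q.2) (κ x, u) := by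
  have h1 : D.At (fun q : V × E => r q.1) (κ x, u) :=
    D.comp (u := r) (g := Prod.fst) (x := ((κ x, u) : V × E)) hx.plot
      (Sm.of_contDiff contDiff_fst _)
  have h2 : Sm (fun q : V × E => q.2) (κ x, u) := Sm.of_contDiff contDiff_snd _
  refine hF h1 h2 ?_
  have h3 := hx.ev.self_of_nhds.2
  simp only [h3]
  exact h

/-- functions which are smooth along plots are smooth in the second variable -/
theorem SmOn.contDiffAt (hD : Sec D) (hF : SmOn D F S) {p : X × E} (hp : p ∈ S) :
    Sm (F p.1) p.2 := by
  obtain ⟨V, i1, i2, i3, κ, r, hx⟩ := hD p.1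
  have h1 := hF.sm hx (u := p.2) hp
  have h2 : Sm (fun u : E => F (r (κ p.1)) u) p.2 :=
    Sm.comp (f := fun q : V × E => F (r q.1) q.2) (g := fun u : E => (κ p.1, u)) h1
      ((Sm.const _ _).prodMk (Sm.id' _))
  rwa [hx.ev.self_of_nhds.2] at h2

/-- functions which are smooth along plots have jointly continuous derivatives -/
theorem SmOn.continuousAt (hD : Sec D) (hF : SmOn D F S) {p : X × E} (hp : p ∈ S) (k : ℕ) :
    ContinuousAt (fun q : X × E => iteratedFDeriv ℝ k (F q.1) q.2) p := by
  obtain ⟨V, i1, i2, i3, κ, r, hx⟩ := hD p.1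
  have h1 := hF.sm hx (u := p.2) hp
  have h2 := continuousAt_slice h1 k
  have h3 : ContinuousAt (fun q : X × E => (κ q.1, q.2)) p :=
    (ContinuousAt.comp (g := κ) (f := Prod.fst) hx.ev.self_of_nhds.1 continuousAt_fst).prodMk
      continuousAt_snd
  have h4 : ContinuousAt (fun q : X × E => iteratedFDeriv ℝ k
      (fun u => F (r (κ q.1)) u) q.2) p :=
    ContinuousAt.comp (g := fun q : V × E => iteratedFDeriv ℝ k (fun u => F (r q.1) u) q.2)
      (f := fun q : X × E => (κ q.1, q.2)) h2 h3
  refine h4.congr ?_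
  filter_upwards [(continuousAt_fst (p := p)).eventually hx.ev] with q hq
  rw [hq.2]

theorem SmOn.continuousOn (hD : Sec D) (hF : SmOn D F S) (k : ℕ) :
    ContinuousOn (fun q : X × E => iteratedFDeriv ℝ k (F q.1) q.2) S :=
  fun _ hp => (hF.continuousAt hD hp k).continuousWithinAt

theorem SmOn.contDiffOn (hD : Sec D) (hF : SmOn D F S) (x : X) :
    ContDiffOn ℝ ∞ (F x) {u | (x, u) ∈ S} :=
  fun _ hu => (hF.contDiffAt hD (p := (x, _)) hu).contDiffAt.contDiffWithinAt

/-- smooth maps between diffeologies with sections are continuous -/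
theorem continuous_of_map {D : Dif X} (hD : Sec D) {D' : Dif Y}
    (hc : ∀ {E : Type} [NormedAddCommGroup E] [NormedSpace ℝ E] [FiniteDimensional ℝ E]
      {u : E → Y} {y : E}, D'.At u y → ContinuousAt u y) {f : X → Y} (hf : D.Map D' f) :
    Continuous f := by
  rw [continuous_iff_continuousAt]
  intro x
  obtain ⟨V, i1, i2, i3, κ, r, hx⟩ := hD x
  have h1 : ContinuousAt (f ∘ r) (κ x) := hc (hf hx.plot)
  have h2 : ContinuousAt (fun q => (f ∘ r) (κ q)) x :=
    ContinuousAt.comp (g := f ∘ r) (f := κ) h1 hx.ev.self_of_nhds.1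
  refine h2.congr ?_
  filter_upwards [hx.ev] with q hq
  simp only [Function.comp_apply, hq.2]

end JC

end Vale.Agent.P207.N3.H566
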